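import Vale.Agent.P371.Numbers

/-!
One-dimensional Lieb-Thirring inequality at `γ = 1` for matrix potentials, in its variational form,
with constant `1.473 * (2 / (3 π))`, that is `1.473` times the semiclassical constant.
-/

namespace Vale.Agent.Results.P371.MatrixBound

open MeasureTheory Real LT371
open scoped ComplexOrder

lemma cst_le : Cst cc qq ≤ 1473 / 1000 * (2 / (3 * π)) := by
  have hlog : Real.log 2 < 0.6931471808 := Real.log_two_lt_d9
  unfold Cst
  rw [nMix_val, dMix_val]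
  have h1 : √(3 * (19490609381501069530613327597907919131000070267377707393320862918641078928257 /
      47044894528867883019275303859310183007805460062945225722728042086400000000000000) *
      Real.log 2 / 2) ≤ 0.020755 := by
    rw [Real.sqrt_le_iff]
    constructor
    · norm_num
    · nlinarith
  have h2 : (0 : ℝ) < π := pi_pos
  have h3 : π < 3.1416 := Real.pi_lt_d4
  have h4 : (2 : ℝ) / (3 * 3.1416) ≤ 2 / (3 * π) := by
    apply div_le_div_of_nonneg_left (by norm_num) (by positivity)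
    linarith
  calc _ ≤ 3 / 2 * (138285169481855124133 / 13781735253000000000) * 0.020755 := by
        gcongr
    _ ≤ 1473 / 1000 * ((2 : ℝ) / (3 * 3.1416)) := by norm_num
    _ ≤ _ := by gcongr

/-- For a measurable field `W` of positive semidefinite `m × m` matrices with
`∫ tr W^{3/2} < ∞` and every orthonormal family `ψ_1, …, ψ_N` of `ℂ^m`-valued Schwartz functions,
the potential energies are integrable and
`∑ ∫ ⟨ψ_j, W ψ_j⟩ ≤ ∑ ∫ ‖ψ_j'‖² + 1.473 * (2 / (3 π)) * ∫ tr W^{3/2}`. -/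
theorem result (m N : ℕ) (W : ℝ → Matrix (Fin m) (Fin m) ℂ)
    (hWm : ∀ a b, Measurable fun x => W x a b)
    (hW : ∀ x, (W x).PosSemidef)
    (hWi : Integrable fun x => ∑ l, (hW x).1.eigenvalues l ^ (3 / 2 : ℝ))
    (ψ : Fin N → SchwartzMap ℝ (EuclideanSpace ℂ (Fin m)))
    (hψ : ∀ j k, ∫ x, inner ℂ (ψ j x) (ψ k x) = if j = k then (1 : ℂ) else 0) :
    (∀ j, Integrable fun x => (star (ψ j x).ofLp ⬝ᵥ (W x).mulVec (ψ j x).ofLp).re) ∧
    ∑ j, ∫ x, (star (ψ j x).ofLp ⬝ᵥ (W x).mulVec (ψ j x).ofLp).re ≤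
      (∑ j, ∫ x, ‖deriv (ψ j) x‖ ^ 2) +
        1473 / 1000 * (2 / (3 * π)) * ∫ x, ∑ l, (hW x).1.eigenvalues l ^ (3 / 2 : ℝ) := by
  have hD : 0 < dMix cc qq := by
    rw [dMix_val]
    norm_num
  obtain ⟨h1, h2⟩ := main_general cc qq qq_pos cc_sum hD W hWm hW hWi ψ hψ
  refine ⟨h1, h2.trans ?_⟩
  have hV : 0 ≤ ∫ x, ∑ l, (hW x).1.eigenvalues l ^ (3 / 2 : ℝ) :=
    integral_nonneg fun x => Finset.sum_nonneg fun l _ =>
      Real.rpow_nonneg ((hW x).eigenvalues_nonneg l) _
  have := mul_le_mul_of_nonneg_right cst_le hV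
  linarith

end Vale.Agent.Results.P371.MatrixBound
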